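import Vale.Agent.P246.R2.H429.Defs4

/-!
# P246: row TW1, the collapse map of the square onto the sphere and the cells of the wedge
-/

set_option linter.all false

open Set Topology Metric

namespace Vale.Agent.P246.H408

open Vale.Agent.P246 Vale.Agent.P246.T Vale.Agent.P246.H429

/-- the identification of the two planes -/
noncomputable abbrev eE : EuclideanSpace ℝ (Fin 2) ≃L[ℝ] (Fin 2 → ℝ) := EuclideanSpace.equiv (Fin 2) ℝ

theorem norm_eE_le (y : EuclideanSpace ℝ (Fin 2)) : ‖eE y‖ ≤ ‖y‖ := by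
  rw [pi_norm_le_iff_of_nonneg (norm_nonneg _)]
  intro i
  exact PiLp.norm_apply_le y i

theorem norm_le_eE_symm (z : Fin 2 → ℝ) : ‖z‖ ≤ ‖eE.symm z‖ := by
  have := norm_eE_le (eE.symm z)
  rwa [ContinuousLinearEquiv.apply_symm_apply] at this

theorem exists_collapse (s : S2) : ∃ κ : C(Dk 2, S2),
    (∀ z : Dk 2, ‖(z : Fin 2 → ℝ)‖ = 1 → κ z = s) ∧
    (∀ z : Dk 2, ‖(z : Fin 2 → ℝ)‖ < 1 → κ z ≠ s) ∧
    (∀ z z' : Dk 2, ‖(z : Fin 2 → ℝ)‖ < 1 → ‖(z' : Fin 2 → ℝ)‖ < 1 → κ z = κ z' → z = z') ∧
    Function.Surjective κ := by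
  classical
  haveI : Fact (Module.finrank ℝ (EuclideanSpace ℝ (Fin 3)) = 2 + 1) := ⟨by simp⟩
  set φ := stereographic' (E := EuclideanSpace ℝ (Fin 3)) 2 s with hφ
  have hsrc : φ.source = {s}ᶜ := stereographic'_source s
  have htgt : φ.target = univ := stereographic'_target s
  set k : Dk 2 → S2 := fun z => if ‖(z : Fin 2 → ℝ)‖ < 1 then
    φ.symm (eE.symm ((1 - ‖(z : Fin 2 → ℝ)‖)⁻¹ • (z : Fin 2 → ℝ))) else s with hk
  have hk1 : ∀ z : Dk 2, ‖(z : Fin 2 → ℝ)‖ < 1 →
      k z = φ.symm (eE.symm ((1 - ‖(z : Fin 2 → ℝ)‖)⁻¹ • (z : Fin 2 → ℝ))) :=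
    fun z hz => if_pos hz
  have hk2 : ∀ z : Dk 2, ¬ ‖(z : Fin 2 → ℝ)‖ < 1 → k z = s := fun z hz => if_neg hz
  have hcont : Continuous k := by
    rw [continuous_iff_continuousAt]
    intro z
    by_cases hz : ‖(z : Fin 2 → ℝ)‖ < 1
    · have ho : IsOpen {z' : Dk 2 | ‖(z' : Fin 2 → ℝ)‖ < 1} :=
        isOpen_lt (by fun_prop) continuous_const
      have hc : ContinuousOn k {z' : Dk 2 | ‖(z' : Fin 2 → ℝ)‖ < 1} := by
        have h1 : ContinuousOn (fun z' : Dk 2 =>
            φ.symm (eE.symm ((1 - ‖(z' : Fin 2 → ℝ)‖)⁻¹ • (z' : Fin 2 → ℝ))))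
            {z' : Dk 2 | ‖(z' : Fin 2 → ℝ)‖ < 1} := by
          have h2 : ContinuousOn (fun z' : Dk 2 =>
              eE.symm ((1 - ‖(z' : Fin 2 → ℝ)‖)⁻¹ • (z' : Fin 2 → ℝ)))
              {z' : Dk 2 | ‖(z' : Fin 2 → ℝ)‖ < 1} := by
            apply eE.symm.continuous.comp_continuousOn
            have hA : ContinuousOn (fun z' : Dk 2 => (1 - ‖(z' : Fin 2 → ℝ)‖)⁻¹)
                {z' : Dk 2 | ‖(z' : Fin 2 → ℝ)‖ < 1} := by
              apply ContinuousOn.inv₀
              · fun_prop
              · intro z' hz'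
                have : ‖(z' : Fin 2 → ℝ)‖ < 1 := hz'
                linarith
            have hB : ContinuousOn (fun z' : Dk 2 => (z' : Fin 2 → ℝ))
                {z' : Dk 2 | ‖(z' : Fin 2 → ℝ)‖ < 1} := continuous_subtype_val.continuousOn
            exact hA.smul hB
          exact φ.continuousOn_symm.comp h2 (fun z' _ => by rw [htgt]; exact mem_univ _)
        exact h1.congr fun z' hz' => hk1 z' hz'
      exact hc.continuousAt (ho.mem_nhds hz)
    · rw [ContinuousAt, hk2 z hz]
      rw [(nhds_basis_opens s).tendsto_right_iff]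
      rintro U ⟨hsU, hU⟩
      have hcpt : IsCompact (φ '' Uᶜ) := by
        apply (hU.isClosed_compl.isCompact).image_of_continuousOn
        refine φ.continuousOn.mono fun p hp => ?_
        rw [hsrc]
        intro hps
        rw [mem_singleton_iff] at hps
        exact hp (hps ▸ hsU)
      obtain ⟨R, hR0, hR⟩ := hcpt.isBounded.exists_pos_norm_le
      have hz1 : ‖(z : Fin 2 → ℝ)‖ = 1 := by
        have : ‖(z : Fin 2 → ℝ)‖ ≤ 1 := by
          have := z.2
          rwa [mem_closedBall_zero_iff] at this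
        exact le_antisymm this (not_lt.1 hz)
      have ho : IsOpen {z' : Dk 2 | R / (1 + R) < ‖(z' : Fin 2 → ℝ)‖} :=
        isOpen_lt continuous_const (by fun_prop)
      have hzo : z ∈ {z' : Dk 2 | R / (1 + R) < ‖(z' : Fin 2 → ℝ)‖} := by
        rw [mem_setOf_eq, hz1, div_lt_one (by positivity)]
        linarith
      filter_upwards [ho.mem_nhds hzo] with z' hz'
      by_cases hz1' : ‖(z' : Fin 2 → ℝ)‖ < 1
      · rw [hk1 z' hz1']
        by_contra hcon
        set y := eE.symm ((1 - ‖(z' : Fin 2 → ℝ)‖)⁻¹ • (z' : Fin 2 → ℝ)) with hy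
        have h1 : φ (φ.symm y) = y := φ.right_inv (by rw [htgt]; exact mem_univ _)
        have h2 : ‖y‖ ≤ R := by
          apply hR
          exact ⟨φ.symm y, hcon, h1⟩
        have h3 : ‖(1 - ‖(z' : Fin 2 → ℝ)‖)⁻¹ • (z' : Fin 2 → ℝ)‖ ≤ R :=
          (norm_le_eE_symm _).trans h2
        have h4 : 0 < 1 - ‖(z' : Fin 2 → ℝ)‖ := by linarith
        rw [norm_smul, norm_inv, Real.norm_of_nonneg h4.le, inv_mul_le_iff₀ h4] at h3
        rw [div_lt_iff₀ (by positivity)] at hz'
        nlinarith
      · rw [hk2 z' hz1']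
        exact hsU
  have hinj : ∀ z z' : Dk 2, ‖(z : Fin 2 → ℝ)‖ < 1 → ‖(z' : Fin 2 → ℝ)‖ < 1 →
      k z = k z' → z = z' := by
    intro z z' hz hz' h
    rw [hk1 z hz, hk1 z' hz'] at h
    have h1 := φ.symm.injOn (by rw [φ.symm_source, htgt]; exact mem_univ _)
      (by rw [φ.symm_source, htgt]; exact mem_univ _) h
    have h2 := eE.symm.injective h1
    have p1 : 0 < 1 - ‖(z : Fin 2 → ℝ)‖ := by linarith
    have p2 : 0 < 1 - ‖(z' : Fin 2 → ℝ)‖ := by linarith
    have h3 := congrArg norm h2
    rw [norm_smul, norm_smul, norm_inv, norm_inv, Real.norm_of_nonneg p1.le,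
      Real.norm_of_nonneg p2.le, inv_mul_eq_div, inv_mul_eq_div, div_eq_div_iff p1.ne' p2.ne'] at h3
    have h4 : ‖(z : Fin 2 → ℝ)‖ = ‖(z' : Fin 2 → ℝ)‖ := by linarith
    rw [h4] at h2
    exact Subtype.ext (smul_right_injective _ (inv_ne_zero p2.ne') h2)
  refine ⟨⟨k, hcont⟩, fun z hz => hk2 z (by rw [hz]; exact lt_irrefl _), ?_, hinj, ?_⟩
  · intro z hz
    change k z ≠ s
    rw [hk1 z hz]
    have h1 := φ.map_target (x := eE.symm ((1 - ‖(z : Fin 2 → ℝ)‖)⁻¹ • (z : Fin 2 → ℝ)))
      (by rw [htgt]; exact mem_univ _)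
    rw [hsrc] at h1
    exact h1
  · intro p
    by_cases hp : p = s
    · refine ⟨⟨fun _ => 1, ?_⟩, ?_⟩
      · rw [mem_closedBall_zero_iff, pi_norm_const]
        simp
      · refine (hk2 _ ?_).trans hp.symm
        rw [pi_norm_const]
        simp
    · have hps : p ∈ φ.source := by rw [hsrc]; exact hp
      set y : Fin 2 → ℝ := eE (φ p) with hy
      have h1 : 0 < 1 + ‖y‖ := by positivity
      have h2 : ‖(1 + ‖y‖)⁻¹ • y‖ = ‖y‖ / (1 + ‖y‖) := by
        rw [norm_smul, norm_inv, Real.norm_of_nonneg h1.le, inv_mul_eq_div]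
      have h3 : ‖y‖ / (1 + ‖y‖) < 1 := by
        rw [div_lt_one h1]; linarith
      refine ⟨⟨(1 + ‖y‖)⁻¹ • y, ?_⟩, ?_⟩
      · rw [mem_closedBall_zero_iff, h2]
        exact h3.le
      · change k _ = p
        rw [hk1 _ (by rw [h2]; exact h3)]
        have h4 : (1 - ‖(1 + ‖y‖)⁻¹ • y‖)⁻¹ • ((1 + ‖y‖)⁻¹ • y) = y := by
          rw [h2, smul_smul]
          have : (1 - ‖y‖ / (1 + ‖y‖))⁻¹ * (1 + ‖y‖)⁻¹ = 1 := by
            rw [← mul_inv]
            have : (1 - ‖y‖ / (1 + ‖y‖)) * (1 + ‖y‖) = 1 := by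
              field_simp
              ring
            rw [this, inv_one]
          rw [this, one_smul]
        change φ.symm (eE.symm ((1 - ‖(1 + ‖y‖)⁻¹ • y‖)⁻¹ • ((1 + ‖y‖)⁻¹ • y))) = p
        rw [h4, hy, ContinuousLinearEquiv.symm_apply_apply, φ.left_inv hps]

theorem specSph : SpecSph := by
  classical
  intro X _ _ x s t
  obtain ⟨κ, hκ1, hκ2, hκ3, hκ4⟩ := exists_collapse s
  set A : ℕ → Set (WedgeS2 X x s t) := fun j => {q | ∀ i : Fin t, j ≤ i.val → q.1.2 i = s} with hA
  have hA0 : A 0 = inX X x s t := by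
    ext q
    exact ⟨fun h i => h i (Nat.zero_le _), fun h i _ => h i⟩
  have hAt : A t = univ := by
    rw [eq_univ_iff_forall]
    intro q i hi
    exact absurd i.2 (by omega)
  have key : ∀ j, j ≤ t → Sph (inX X x s t) (A j) j := by
    intro j
    induction j with
    | zero =>
      intro _
      rw [hA0]
      exact Sph.base
    | succ j ih =>
      intro hj
      have hjt : j < t := hj
      set i0 : Fin t := ⟨j, hjt⟩ with hi0
      have hmem : ∀ p : S2, (∀ i, Function.update (fun _ : Fin t => s) i0 p i = s) ∨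
          (x = x ∧ ∃ i, ∀ j, j ≠ i → Function.update (fun _ : Fin t => s) i0 p j = s) := by
        intro p
        right
        exact ⟨rfl, i0, fun j hj => Function.update_of_ne hj _ _⟩
      let Φ : C(Dk 2, WedgeS2 X x s t) :=
        ⟨fun z => ⟨(x, Function.update (fun _ => s) i0 (κ z)), hmem (κ z)⟩, by
          apply Continuous.subtype_mk
          exact continuous_const.prodMk (continuous_const.update i0 κ.continuous)⟩
      have hΦ : ∀ z, (Φ z).1.2 = Function.update (fun _ => s) i0 (κ z) := fun z => rfl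
      have hΦ1 : ∀ z, (Φ z).1.1 = x := fun z => rfl
      let a : WedgeS2 X x s t := ⟨(x, fun _ => s), Or.inl fun _ => rfl⟩
      refine Sph.cell Φ a (ih hjt.le) (fun i => rfl) ?_ ⟨?_, ?_, ?_, ?_⟩
      · intro z hz
        apply Subtype.ext
        apply Prod.ext
        · rfl
        · rw [hΦ, hκ1 z hz]
          exact Function.update_eq_self i0 (fun _ => s)
      · intro z hz i _
        rw [hΦ, hκ1 z hz]
        exact congrFun (Function.update_eq_self i0 (fun _ : Fin t => s)) i
      · intro z hz h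
        have h1 := h i0 le_rfl
        rw [hΦ, Function.update_self] at h1
        exact hκ2 z hz h1
      · intro z z' hz hz' h
        apply hκ3 z z' hz hz'
        have h1 : (Φ z).1.2 i0 = (Φ z').1.2 i0 := by rw [h]
        rwa [hΦ, hΦ, Function.update_self, Function.update_self] at h1
      · ext q
        constructor
        · intro hq
          by_cases h0 : q.1.2 i0 = s
          · left
            intro i hi
            rcases Nat.lt_or_ge j i.val with h1 | h1
            · exact hq i h1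
            · have : i = i0 := Fin.ext (le_antisymm h1 hi)
              rw [this]
              exact h0
          · right
            rcases q.2 with h1 | ⟨h1, i, h2⟩
            · exact absurd (h1 i0) h0
            · have hi : i0 = i := by
                by_contra hne
                exact h0 (h2 i0 hne)
              obtain ⟨z, hz⟩ := hκ4 (q.1.2 i0)
              refine ⟨z, Subtype.ext (Prod.ext h1.symm ?_)⟩
              rw [hΦ, hz]
              funext l
              by_cases hl : l = i0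
              · rw [hl, Function.update_self]
              · rw [Function.update_of_ne hl]
                exact (h2 l (by rw [← hi]; exact hl)).symm
        · rintro (h | ⟨z, rfl⟩)
          · exact fun i hi => h i (by omega)
          · intro i hi
            rw [hΦ]
            apply Function.update_of_ne
            intro h
            rw [h] at hi
            simp only [hi0] at hi
            omega
  rw [← hAt]
  exact key t le_rfl

end Vale.Agent.P246.H408
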