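import Mathlib.GroupTheory.Schreier
import Mathlib.GroupTheory.GroupAction.ConjAct
import Mathlib.RingTheory.Invariant.Basic
import Mathlib.RingTheory.Adjoin.Tower
import Mathlib.RingTheory.FiniteType
import Mathlib.RingTheory.KrullDimension.Polynomial
import Mathlib.RingTheory.KrullDimension.PID
import Vale.Agent.P246.R2.H429.Defs

/-!
# P246: row V of the stable range theorem: the group ring of a finitely generated virtually
abelian group is finite over a commutative noetherian ring of finite dimension in its centre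
-/

set_option linter.all false

namespace Vale.Agent.P246.H408

section core

variable {N G : Type} [CommGroup N] [Group G] (i : N →* G) (c : G →* MulAut N)

/-- the invariants of the group ring of `N` under the action `c` -/
noncomputable def invS : Subalgebra ℤ (MonoidAlgebra ℤ N) where
  carrier := {x | ∀ g : G, MonoidAlgebra.domCongr ℤ ℤ (c g) x = x}
  mul_mem' := by
    intro a b ha hb g
    rw [map_mul, ha g, hb g]
  add_mem' := by
    intro a b ha hb g
    rw [map_add, ha g, hb g]
  algebraMap_mem' := by
    intro r g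
    exact AlgEquiv.commutes _ _

/-- the map of group rings -/
noncomputable def jj : MonoidAlgebra ℤ N →+* MonoidAlgebra ℤ G := MonoidAlgebra.mapDomainRingHom ℤ i

theorem jj_comm (hc : ∀ g n, i (c g n) = g * i n * g⁻¹) (g : G) (x : MonoidAlgebra ℤ N) :
    MonoidAlgebra.single g (1 : ℤ) * jj i x =
      jj i (MonoidAlgebra.domCongr ℤ ℤ (c g) x) * MonoidAlgebra.single g 1 := by
  induction x using MonoidAlgebra.induction_linear with
  | zero => simp
  | add x y hx hy => rw [map_add, mul_add, hx, hy, map_add, map_add, add_mul]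
  | single n r =>
    simp [jj, MonoidAlgebra.single_mul_single, hc]

theorem jj_central (hc : ∀ g n, i (c g n) = g * i n * g⁻¹) (a : invS c) (x : MonoidAlgebra ℤ G) :
    jj i (a : MonoidAlgebra ℤ N) * x = x * jj i (a : MonoidAlgebra ℤ N) := by
  induction x using MonoidAlgebra.induction_linear with
  | zero => simp
  | add x y hx hy => rw [mul_add, hx, hy, add_mul]
  | single g r =>
    have h := jj_comm i c hc g (a : MonoidAlgebra ℤ N)
    rw [a.2 g] at h
    have e : (MonoidAlgebra.single g r : MonoidAlgebra ℤ G) = r • MonoidAlgebra.single g 1 := by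
      simp
    rw [e, mul_smul_comm, smul_mul_assoc, h]

theorem core [Group.FG N] (hc : ∀ g n, i (c g n) = g * i n * g⁻¹) [Finite c.range]
    {Q : Type} [Fintype Q] [DecidableEq Q] (r : Q → G) (hr : ∀ g, ∃ q n, g = i n * r q) :
    ∃ (A : Type) (_ : CommRing A) (_ : IsNoetherianRing A) (_ : Algebra A (MonoidAlgebra ℤ G)),
      Module.Finite A (MonoidAlgebra ℤ G) ∧ ∃ d : ℕ, ∀ p : Ideal A, p.IsPrime → p.height ≤ d := by
  let B := MonoidAlgebra ℤ N
  let H : Subgroup (B ≃ₐ[ℤ] B) := (c.range).map (MonoidAlgebra.domCongrAut (R := ℤ) (A := ℤ))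
  haveI : Finite H := Finite.of_surjective _
    (MonoidHom.subgroupMap_surjective (MonoidAlgebra.domCongrAut (R := ℤ) (A := ℤ)) c.range)
  haveI : Algebra.IsInvariant (invS c) B H :=
    ⟨fun b hb => ⟨⟨b, fun g => hb ⟨_, _, ⟨g, rfl⟩, rfl⟩⟩, rfl⟩⟩
  haveI h1 : Algebra.IsIntegral (invS c) B := Algebra.IsInvariant.isIntegral (invS c) B H
  haveI h2 : Algebra.FiniteType ℤ B := inferInstance
  haveI h3 : Algebra.FiniteType (invS c) B :=
    Algebra.FiniteType.of_restrictScalars_finiteType ℤ (invS c) B
  haveI h4 : Module.Finite (invS c) B := Algebra.IsIntegral.finite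
  haveI h5 : Algebra.FiniteType ℤ (invS c) :=
    ⟨fg_of_fg_of_fg ℤ (invS c) B Algebra.FiniteType.out Module.Finite.fg_top
      Subtype.val_injective⟩
  haveI h6 : IsNoetherianRing (invS c) := Algebra.FiniteType.isNoetherianRing ℤ (invS c)
  letI alg : Algebra (invS c) (MonoidAlgebra ℤ G) :=
    RingHom.toAlgebra' ((jj i).comp (invS c).val.toRingHom) (fun a x => jj_central i c hc a x)
  refine ⟨invS c, inferInstance, h6, alg, ?_, ?_⟩
  · have hsm : ∀ (a : invS c) (x : MonoidAlgebra ℤ G), a • x = jj i (a : MonoidAlgebra ℤ N) * x :=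
      fun a x => rfl
    let φ : (Q → B) →ₗ[invS c] MonoidAlgebra ℤ G :=
      { toFun := fun f => ∑ q, jj i (f q) * MonoidAlgebra.single (r q) (1 : ℤ)
        map_add' := by
          intro f f'
          simp only [Pi.add_apply, map_add, add_mul, Finset.sum_add_distrib]
        map_smul' := by
          intro a f
          rw [RingHom.id_apply, hsm, Finset.mul_sum]
          refine Finset.sum_congr rfl fun q _ => ?_
          have : (a • f) q = (a : MonoidAlgebra ℤ N) * f q := rfl
          rw [this, map_mul, mul_assoc] }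
    refine Module.Finite.of_surjective φ ?_
    intro x
    induction x using MonoidAlgebra.induction_linear with
    | zero => exact ⟨0, map_zero φ⟩
    | add x y hx hy =>
      obtain ⟨u, hu⟩ := hx
      obtain ⟨v, hv⟩ := hy
      exact ⟨u + v, by rw [map_add, hu, hv]⟩
    | single g s =>
      obtain ⟨q, n, h⟩ := hr g
      refine ⟨Pi.single q (MonoidAlgebra.single n s), ?_⟩
      change ∑ q', jj i ((Pi.single q (MonoidAlgebra.single n s) : Q → B) q') *
        MonoidAlgebra.single (r q') (1 : ℤ) = _
      rw [Finset.sum_eq_single q]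
      · rw [Pi.single_eq_same, h]
        simp [jj, MonoidAlgebra.single_mul_single]
      · intro q' _ hq
        rw [Pi.single_eq_of_ne hq, map_zero, zero_mul]
      · intro h
        exact absurd (Finset.mem_univ q) h
  · obtain ⟨n, f, hf⟩ := Algebra.FiniteType.iff_quotient_mvPolynomial''.1 h5
    refine ⟨1 + n, fun p hp => ?_⟩
    have e1 : (p.height : WithBot ℕ∞) ≤ ringKrullDim (invS c) :=
      Ideal.height_le_ringKrullDim_of_ne_top hp.ne_top
    have e2 : ringKrullDim (invS c) ≤ ringKrullDim (MvPolynomial (Fin n) ℤ) :=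
      ringKrullDim_le_of_surjective f.toRingHom hf
    have e3 : ringKrullDim (MvPolynomial (Fin n) ℤ) = ((1 + n : ℕ) : WithBot ℕ∞) := by
      rw [MvPolynomial.ringKrullDim_of_isNoetherianRing,
        IsPrincipalIdealRing.ringKrullDim_eq_one ℤ Int.not_isField, Nat.card_fin]
      push_cast
      rfl
    have e4 := e1.trans (e2.trans e3.le)
    exact_mod_cast e4

end core

open Vale.Agent.P246 Vale.Agent.P246.H429

theorem va : SpecVA := by
  intro G _ hG hN
  obtain ⟨N, hfi, hcomm⟩ := hN
  haveI := hG
  haveI := hfi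
  let K : Subgroup G := N.normalCore
  haveI : K.FiniteIndex := Subgroup.finiteIndex_normalCore N
  haveI : K.Normal := Subgroup.normalCore_normal N
  haveI : Group.FG K := Subgroup.fg_of_index_ne_zero K
  have hK : ∀ a b : K, a * b = b * a := fun a b =>
    Subtype.ext (hcomm a (N.normalCore_le a.2) b (N.normalCore_le b.2))
  letI : CommGroup K := { (inferInstance : Group K) with mul_comm := hK }
  let c : G →* MulAut K := MulAut.conjNormal
  have hker : K ≤ c.ker := by
    intro k hk
    rw [MonoidHom.mem_ker]
    ext x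
    rw [MulAut.conjNormal_apply]
    have := congrArg (Subtype.val) (hK ⟨k, hk⟩ x)
    simp only [Subgroup.coe_mul] at this
    rw [this]
    simp
  haveI : c.ker.FiniteIndex := Subgroup.finiteIndex_of_le hker
  haveI : Finite c.range := by
    haveI : Finite (G ⧸ c.ker) := Subgroup.finite_quotient_of_finiteIndex
    exact Finite.of_equiv _ (QuotientGroup.quotientKerEquivRange c).toEquiv
  haveI : Finite (G ⧸ K) := Subgroup.finite_quotient_of_finiteIndex
  classical
  haveI : Fintype (G ⧸ K) := Fintype.ofFinite _
  refine core (N := K) K.subtype c (fun g n => MulAut.conjNormal_apply g n)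
    (Q := G ⧸ K) (fun q => q.out) (fun g => ?_)
  obtain ⟨h, hh⟩ := QuotientGroup.mk_out_eq_mul K g
  refine ⟨(g : G ⧸ K), ⟨g * (h : G)⁻¹ * g⁻¹, ?_⟩, ?_⟩
  · exact Subgroup.Normal.conj_mem inferInstance _ (K.inv_mem h.2) g
  · rw [hh]
    simp [mul_assoc]

end Vale.Agent.P246.H408
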